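import Crest.Agent.R165.Lat

/-! # R165 block B1/A: explicit forms of the local operators -/

set_option autoImplicit false
noncomputable section
open Classical

namespace Crest.Agent.R165

theorem b1_r : Real.sqrt 2 ^ 2 = 2 := Real.sq_sqrt (by norm_num)

theorem tc_sq : tc ^ 2 + 2 * tc = 1 := by
  unfold tc; linear_combination b1_r

theorem tc_pos : 0 < tc ∧ tc < 1 := by
  have h := Real.sqrt_nonneg 2
  have := b1_r
  unfold tc
  constructor <;> nlinarith

section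
variable (w : Edge → ℝ) (s : Fn) (a b : ℤ)

theorem opp_0 : opp s (a, b) 0 = s ((a + 1, b), 2) := by simp [opp, sv, dv]
theorem opp_1 : opp s (a, b) 1 = s ((a, b + 1), 3) := by simp [opp, sv, dv]
theorem opp_2 : opp s (a, b) 2 = -s ((a - 1, b), 0) := by simp [opp, sv, dv, sub_eq_add_neg]
theorem opp_3 : opp s (a, b) 3 = -s ((a, b - 1), 1) := by simp [opp, sv, dv, sub_eq_add_neg]
theorem edgeOf_0 : edgeOf (a, b) 0 = ((a, b), 0) := rfl
theorem edgeOf_1 : edgeOf (a, b) 1 = ((a, b), 1) := rfl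
theorem edgeOf_2 : edgeOf (a, b) 2 = ((a - 1, b), 0) := by simp [edgeOf]
theorem edgeOf_3 : edgeOf (a, b) 3 = ((a, b - 1), 1) := by simp [edgeOf]
theorem add_dv_0 : (a, b) + dv 0 = (a + 1, b) := by simp [dv]
theorem add_dv_1 : (a, b) + dv 1 = (a, b + 1) := by simp [dv]
theorem add_dv_2 : (a, b) + dv 2 = (a - 1, b) := by simp [dv, sub_eq_add_neg]
theorem add_dv_3 : (a, b) + dv 3 = (a, b - 1) := by simp [dv, sub_eq_add_neg]
theorem add_uv_0 : (a, b) + uv 0 = (a + 1, b) := by simp [uv]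
theorem add_uv_1 : (a, b) + uv 1 = (a, b + 1) := by simp [uv]
theorem cB_0 : cB (a, b) 0 = (a + 1, b + 1) := by simp [cB]
theorem cB_1 : cB (a, b) 1 = (a, b + 1) := by simp [cB]
theorem cB_2 : cB (a, b) 2 = (a, b) := by simp [cB]
theorem cB_3 : cB (a, b) 3 = (a + 1, b) := by simp [cB]

end

section
variable (w : Edge → ℝ) (s : Fn) (x : Site)

theorem opA_0 : opA w s (x, 0) = s (x, 1) + s (x, 2) + s (x, 3) + w (edgeOf x 0) * opp s x 0 := by
  simp [opA, sv]
theorem opA_1 : opA w s (x, 1) = s (x, 2) + s (x, 3) - s (x, 0) + w (edgeOf x 1) * opp s x 1 := by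
  simp [opA, sv, sub_eq_add_neg]
theorem opA_2 : opA w s (x, 2) = s (x, 3) - s (x, 0) - s (x, 1) + w (edgeOf x 2) * opp s x 2 := by
  simp [opA, sv, sub_eq_add_neg]
theorem opA_3 : opA w s (x, 3) = -s (x, 0) - s (x, 1) - s (x, 2) + w (edgeOf x 3) * opp s x 3 := by
  simp [opA, sv, sub_eq_add_neg]

end

theorem b1_fin4 {p : Fin 4 → Prop} (h0 : p 0) (h1 : p 1) (h2 : p 2) (h3 : p 3) (α : Fin 4) : p α := by
  fin_cases α <;> assumption

theorem b1_he {p : HE → Prop} (h0 : ∀ a b, p ((a, b), 0)) (h1 : ∀ a b, p ((a, b), 1))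
    (h2 : ∀ a b, p ((a, b), 2)) (h3 : ∀ a b, p ((a, b), 3)) (i : HE) : p i := by
  obtain ⟨⟨a, b⟩, α⟩ := i
  exact b1_fin4 (p := fun α => p ((a, b), α)) (h0 a b) (h1 a b) (h2 a b) (h3 a b) α

theorem b1_mem_box {x y : Site} {R : ℕ} :
    y ∈ box x R ↔ (x.1 - R ≤ y.1 ∧ y.1 ≤ x.1 + R) ∧ x.2 - R ≤ y.2 ∧ y.2 ≤ x.2 + R := by
  simp [box]

/-- defect at the corner `(x, α)` -/
theorem corner_defect (w : Edge → ℝ) (s : Fn) (x : Site) (α : Fin 4) :
    cP w s x α - (if α = 3 then -1 else 1) * (cP w s x (α + 1) - 2 * s (x, α + 1)) =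
      opA w s (x, α) - (if α = 3 then -1 else 1) * opA w s (x, α + 1) := by
  induction α using b1_fin4 <;> simp [cP, opA_0, opA_1, opA_2, opA_3] <;> ring

theorem om_eq : om = ⟨-(Real.sqrt 2 / 2), Real.sqrt 2 / 2⟩ := by
  have : (3 * Real.pi * Complex.I / 4 : ℂ) = ((Real.pi - Real.pi / 4 : ℝ) : ℂ) * Complex.I := by
    push_cast; ring
  rw [om, this]
  apply Complex.ext
  · rw [Complex.exp_ofReal_mul_I_re, Real.cos_pi_sub, Real.cos_pi_div_four]
  · rw [Complex.exp_ofReal_mul_I_im, Real.sin_pi_sub, Real.sin_pi_div_four]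

theorem om_sq : om ^ 2 = ⟨0, -1⟩ := by
  rw [om_eq, sq]
  apply Complex.ext <;> simp
  linear_combination (-1 / 2) * b1_r

theorem om_cube : om ^ 3 = ⟨Real.sqrt 2 / 2, Real.sqrt 2 / 2⟩ := by
  rw [pow_succ, om_sq, om_eq]
  apply Complex.ext <;> simp

section
variable (c : ℂ) (x : Site) (s : Fn)

theorem cSol_0 : cSol c (x, 0) = c.re := by simp [cSol]
theorem cSol_1 : cSol c (x, 1) = Real.sqrt 2 / 2 * (c.im - c.re) := by
  simp [cSol, om_eq]; ring
theorem cSol_2 : cSol c (x, 2) = -c.im := by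
  show (c * (starRingEnd ℂ) om ^ 2).re = _
  rw [← map_pow, om_sq]; simp
theorem cSol_3 : cSol c (x, 3) = Real.sqrt 2 / 2 * (c.im + c.re) := by
  show (c * (starRingEnd ℂ) om ^ 3).re = _
  rw [← map_pow, om_cube]; simp; ring

theorem b1_sum_om (f : Fin 4 → ℝ) : ∑ α : Fin 4, om ^ (α : ℕ) * (f α : ℂ) =
    ⟨f 0 + Real.sqrt 2 / 2 * (f 3 - f 1), Real.sqrt 2 / 2 * (f 1 + f 3) - f 2⟩ := by
  rw [Fin.sum_univ_four]
  show om ^ 0 * _ + om ^ 1 * _ + om ^ 2 * _ + om ^ 3 * _ = _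
  rw [om_sq, om_cube, pow_one, om_eq]
  apply Complex.ext <;> simp <;> ring

theorem fld_re : (fld s x).re = (s (x, 0) + Real.sqrt 2 / 2 * (s (x, 3) - s (x, 1))) / 2 := by
  rw [fld, b1_sum_om fun α => s (x, α)]; simp; ring
theorem fld_im : (fld s x).im = (Real.sqrt 2 / 2 * (s (x, 1) + s (x, 3)) - s (x, 2)) / 2 := by
  rw [fld, b1_sum_om fun α => s (x, α)]; simp; ring

theorem mas_0 : mas s (x, 0) = s (x, 0) / 2 + Real.sqrt 2 / 4 * (s (x, 1) - s (x, 3)) := by
  rw [mas, cSol_0, fld_re]; ring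
theorem mas_1 : mas s (x, 1) = s (x, 1) / 2 + Real.sqrt 2 / 4 * (s (x, 2) + s (x, 0)) := by
  rw [mas, cSol_1, fld_re, fld_im]; linear_combination (-s (x, 1) / 4) * b1_r
theorem mas_2 : mas s (x, 2) = s (x, 2) / 2 + Real.sqrt 2 / 4 * (s (x, 3) + s (x, 1)) := by
  rw [mas, cSol_2, fld_im]; ring
theorem mas_3 : mas s (x, 3) = s (x, 3) / 2 + Real.sqrt 2 / 4 * (s (x, 2) - s (x, 0)) := by
  rw [mas, cSol_3, fld_re, fld_im]; linear_combination (-s (x, 3) / 4) * b1_r

end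

theorem opA_cSol (c : ℂ) (i : HE) : opA wPl (cSol c) i = 0 := by
  induction i using b1_he <;>
    simp only [opA_0, opA_1, opA_2, opA_3, opp_0, opp_1, opp_2, opp_3, cSol_0, cSol_1, cSol_2, cSol_3,
      wPl, tc]
  · ring
  · linear_combination ((c.im + c.re) / 2) * b1_r
  · ring
  · linear_combination ((c.re - c.im) / 2) * b1_r

theorem fld_cSol (c : ℂ) (x : Site) : fld (cSol c) x = c := by
  apply Complex.ext
  · rw [fld_re, cSol_0, cSol_1, cSol_3]; linear_combination (c.re / 4) * b1_r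
  · rw [fld_im, cSol_1, cSol_2, cSol_3]; linear_combination (c.im / 4) * b1_r

section
variable (s : Fn) (a b : ℤ)
theorem rotF_0 : rotF s ((a, b), 0) = -s ((b, -a), 3) := by simp [rotF, sv]
theorem rotF_1 : rotF s ((a, b), 1) = s ((b, -a), 0) := by simp [rotF, sv]
theorem rotF_2 : rotF s ((a, b), 2) = s ((b, -a), 1) := by simp [rotF, sv]
theorem rotF_3 : rotF s ((a, b), 3) = s ((b, -a), 2) := by simp [rotF, sv]
theorem refF_0 : refF s ((a, b), 0) = s ((a, -b), 0) := by simp [refF, sv]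
theorem refF_1 : refF s ((a, b), 1) = -s ((a, -b), 3) := by simp [refF, sv]
theorem refF_2 : refF s ((a, b), 2) = -s ((a, -b), 2) := by simp [refF, sv]
theorem refF_3 : refF s ((a, b), 3) = -s ((a, -b), 1) := by simp [refF, sv]
end

theorem opA_rotF (s : Fn) : opA wPl (rotF s) = rotF (opA wPl s) := by
  funext i
  induction i using b1_he <;>
    simp only [opA_0, opA_1, opA_2, opA_3, opp_0, opp_1, opp_2, opp_3, rotF_0, rotF_1, rotF_2, rotF_3,
      wPl, neg_add', neg_sub', sub_neg_eq_add] <;> ring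

theorem opA_refF (s : Fn) : opA wPl (refF s) = -refF (opA wPl s) := by
  funext i
  induction i using b1_he <;>
    simp only [opA_0, opA_1, opA_2, opA_3, opp_0, opp_1, opp_2, opp_3, refF_0, refF_1, refF_2, refF_3,
      wPl, neg_add', neg_sub', sub_neg_eq_add, Pi.neg_apply] <;> ring

/-- the massive part of a solution is a combination of first differences -/
theorem mas_le : ∃ C : ℝ, ∀ (s : Fn) (x : Site) (δ : ℝ), SolOn wPl {x} s →
    (∀ α β, |dif (dv β) s (x, α)| ≤ δ) → ∀ α, |mas s (x, α)| ≤ C * δ := by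
  refine ⟨1, fun s ⟨a, b⟩ δ hs hd α => ?_⟩
  have key : ∀ {m d : ℝ}, |d| ≤ δ → m = -(Real.sqrt 2 / 4 * tc) * d → |m| ≤ 1 * δ := fun {m d} h1 h2 => by
    have h := Real.sqrt_nonneg 2
    have := b1_r
    have := tc_pos
    rw [h2, abs_mul, abs_neg, abs_of_nonneg (by nlinarith)]
    exact mul_le_mul (by nlinarith) h1 (abs_nonneg _) one_pos.le
  have h0 := hs _ rfl 0
  have h1 := hs _ rfl 1
  have h2 := hs _ rfl 2
  have h3 := hs _ rfl 3
  simp only [opA_0, opA_1, opA_2, opA_3, opp_0, opp_1, opp_2, opp_3, wPl] at h0 h1 h2 h3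
  induction α using b1_fin4
  · refine key (hd 0 2) ?_
    simp only [dif, add_dv_2, mas_0, tc] at *
    linear_combination (-Real.sqrt 2 / 4) * h2 - (s ((a, b), 0) / 4) * b1_r
  · refine key (hd 1 3) ?_
    simp only [dif, add_dv_3, mas_1, tc] at *
    linear_combination (-Real.sqrt 2 / 4) * h3 - (s ((a, b), 1) / 4) * b1_r
  · refine key (hd 2 0) ?_
    simp only [dif, add_dv_0, mas_2, tc] at *
    linear_combination (Real.sqrt 2 / 4) * h0 - (s ((a, b), 2) / 4) * b1_r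
  · refine key (hd 3 1) ?_
    simp only [dif, add_dv_1, mas_3, tc] at *
    linear_combination (Real.sqrt 2 / 4) * h1 - (s ((a, b), 3) / 4) * b1_r

/-- discrete Cauchy–Riemann equation, exact form -/
theorem cr_eq (s : Fn) (x : Site) (h : SolOn wPl {x} s) :
    ∑ α : Fin 4, om ^ (α : ℕ) * ((opp s x α - sv s x (α + 2) : ℝ) : ℂ) = 0 := by
  have h0 := h _ rfl 0
  have h1 := h _ rfl 1
  have h2 := h _ rfl 2
  have h3 := h _ rfl 3
  simp only [opA_0, opA_1, opA_2, opA_3, wPl, tc] at h0 h1 h2 h3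
  rw [b1_sum_om fun α => opp s x α - sv s x (α + 2)]
  have ht := tc_pos.1.ne'
  apply Complex.ext <;> simp [sv] <;> refine mul_left_cancel₀ ht ?_ <;> unfold tc
  · linear_combination h0 + Real.sqrt 2 / 2 * (h3 - h1) + (s (x, 1) + s (x, 3)) / 2 * b1_r
  · linear_combination Real.sqrt 2 / 2 * (h1 + h3) - h2 + (s (x, 1) - s (x, 3)) / 2 * b1_r

end Crest.Agent.R165
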