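import Crest.Agent.R165.B1.A

/-! # R165 block B1/C: antisymmetry, Green's identity, gauge -/

set_option autoImplicit false
noncomputable section
open Classical

namespace Crest.Agent.R165

/-- the opposite half-edge -/
def heOpp : HE ≃ HE where
  toFun i := (i.1 + dv i.2, i.2 + 2)
  invFun i := (i.1 + dv i.2, i.2 + 2)
  left_inv i := by induction i using b1_he <;> simp [dv]
  right_inv i := by induction i using b1_he <;> simp [dv]

/-- rotation of the half-edges at a site -/
def heRot (m : Fin 4) : HE ≃ HE := (Equiv.refl Site).prodCongr (Equiv.addRight m)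

theorem heOpp_apply (x : Site) (α : Fin 4) : heOpp (x, α) = (x + dv α, α + 2) := rfl
theorem heRot_apply (m : Fin 4) (x : Site) (α : Fin 4) : heRot m (x, α) = (x, α + m) := rfl

theorem edgeOf_opp (x : Site) (α : Fin 4) : edgeOf (x + dv α) (α + 2) = edgeOf x α := by
  obtain ⟨a, b⟩ := x
  induction α using b1_fin4 <;> simp [edgeOf, dv, sub_eq_add_neg]

theorem add_dv_dv (x : Site) (α : Fin 4) : x + dv α + dv (α + 2) = x := by
  obtain ⟨a, b⟩ := x
  induction α using b1_fin4 <;> simp [dv]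

theorem opp_mul_opp (s s' : Fn) (x : Site) (α : Fin 4) :
    opp s (x + dv α) (α + 2) * s' (x + dv α, α + 2) = -(s (x, α) * opp s' x α) := by
  obtain ⟨a, b⟩ := x
  induction α using b1_fin4 <;> simp [opp, sv, dv]

theorem b1_fin {s f : Fn} (h : (Function.support s).Finite) :
    (Function.support fun i => s i * f i).Finite :=
  h.subset fun _ hi => left_ne_zero_of_mul hi

theorem b1_swap (e : HE ≃ HE) {f g : Fn} (hf : (Function.support f).Finite)
    (h : ∀ i, g (e i) = -f i) : (Function.support g).Finite ∧ ∑ᶠ i, g i = -∑ᶠ i, f i := by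
  constructor
  · refine (hf.image e).subset fun j hj => ⟨e.symm j, fun h0 => hj ?_, e.apply_symm_apply j⟩
    rw [← e.apply_symm_apply j, h, h0, neg_zero]
  · rw [← finsum_comp_equiv e, ← finsum_neg_distrib]
    exact finsum_congr h

/-- `opA w` is antisymmetric -/
theorem opA_antisym (w : Edge → ℝ) (s s' : Fn) (h : (Function.support s).Finite) :
    ∑ᶠ i, s i * opA w s' i = -∑ᶠ i, opA w s i * s' i := by
  have f1 := b1_fin (f := fun i => sv s' i.1 (i.2 + 1)) h
  have f2 := b1_fin (f := fun i => sv s' i.1 (i.2 + 2)) h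
  have f3 := b1_fin (f := fun i => sv s' i.1 (i.2 + 3)) h
  have f4 := b1_fin (f := fun i => w (edgeOf i.1 i.2) * opp s' i.1 i.2) h
  obtain ⟨g1, e1⟩ := b1_swap (heRot 3) (g := fun i => sv s i.1 (i.2 + 1) * s' i) f3 fun i => by
    induction i using b1_he <;> simp [heRot_apply, sv]
  obtain ⟨g2, e2⟩ := b1_swap (heRot 2) (g := fun i => sv s i.1 (i.2 + 2) * s' i) f2 fun i => by
    induction i using b1_he <;> simp [heRot_apply, sv]
  obtain ⟨g3, e3⟩ := b1_swap (heRot 1) (g := fun i => sv s i.1 (i.2 + 3) * s' i) f1 fun i => by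
    induction i using b1_he <;> simp [heRot_apply, sv]
  obtain ⟨g4, e4⟩ := b1_swap heOpp (g := fun i => w (edgeOf i.1 i.2) * opp s i.1 i.2 * s' i) f4
    fun ⟨x, α⟩ => by
      simp only [heOpp_apply, edgeOf_opp, mul_assoc, opp_mul_opp]; ring
  have u : ∀ {f g : Fn}, (Function.support f).Finite → (Function.support g).Finite →
      (Function.support fun i => f i + g i).Finite := fun hf hg =>
    (hf.union hg).subset (Function.support_add _ _)
  simp only [opA, mul_add, add_mul]
  rw [finsum_add_distrib (u (u f1 f2) f3) f4, finsum_add_distrib (u f1 f2) f3, finsum_add_distrib f1 f2,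
    finsum_add_distrib (u (u g1 g2) g3) g4, finsum_add_distrib (u g1 g2) g3, finsum_add_distrib g1 g2,
    e1, e2, e3, e4]
  ring

/-- conserved bilinear form of the cut-off `η` -/
def bform (w : Edge → ℝ) (η : Site → ℝ) (s s' : Fn) : ℝ :=
  ∑ᶠ i : HE, s i * (w (edgeOf i.1 i.2) * (η (i.1 + dv i.2) - η i.1) * opp s' i.1 i.2)

theorem opA_cut (w : Edge → ℝ) (η : Site → ℝ) (s : Fn) (i : HE) :
    opA w (fun j => η j.1 * s j) i =
      η i.1 * opA w s i + w (edgeOf i.1 i.2) * (η (i.1 + dv i.2) - η i.1) * opp s i.1 i.2 := by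
  induction i using b1_he <;>
    simp only [opA_0, opA_1, opA_2, opA_3, opp_0, opp_1, opp_2, opp_3, add_dv_0, add_dv_1, add_dv_2,
      add_dv_3] <;> ring

/-- **Green's identity / discrete Cauchy formula** -/
theorem green (w : Edge → ℝ) (η : Site → ℝ) (hη : (Function.support η).Finite) (s s' : Fn) :
    bform w η s s' = -(∑ᶠ i : HE, η i.1 * (s i * opA w s' i + opA w s i * s' i)) := by
  have h1 : (Function.support fun i : HE => η i.1).Finite :=
    (hη.prod (Set.finite_univ (α := Fin 4))).subset fun i hi => ⟨hi, trivial⟩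
  have h2 : (Function.support fun i : HE => η (i.1 + dv i.2)).Finite :=
    (b1_swap heOpp (f := fun i => -η i.1) (g := fun i : HE => η (i.1 + dv i.2))
      (by simpa only [Function.support_fun_neg] using h1) fun ⟨x, α⟩ => by
        simp only [heOpp_apply, add_dv_dv, neg_neg]).1
  have h3 : (Function.support fun i : HE =>
      -(s i * (w (edgeOf i.1 i.2) * (η (i.1 + dv i.2) - η i.1) * opp s' i.1 i.2))).Finite :=
    (h2.union h1).subset fun i hi => by
      by_contra h
      simp only [Set.mem_union, Function.mem_support, not_or, not_not] at h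
      exact hi (by simp [h.1, h.2])
  obtain ⟨g4, e4⟩ := b1_swap heOpp (g := fun i =>
    w (edgeOf i.1 i.2) * (η (i.1 + dv i.2) - η i.1) * opp s i.1 i.2 * s' i) h3 fun ⟨x, α⟩ => by
      simp only [heOpp_apply, edgeOf_opp, mul_assoc, opp_mul_opp, add_dv_dv]; ring
  have key := opA_antisym w (fun j => η j.1 * s j) s' (b1_fin h1)
  simp only [opA_cut, add_mul, mul_assoc (η _)] at key
  rw [finsum_add_distrib (b1_fin h1) g4, e4, finsum_neg_distrib] at key
  simp only [mul_add]
  rw [finsum_add_distrib (b1_fin h1) (b1_fin h1), key, bform]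
  ring

/-- gauge transformation of weights and functions -/
def gaugeW (σ : Site → ℝ) (w : Edge → ℝ) (e : Edge) : ℝ := σ e.1 * σ (e.1 + uv e.2) * w e
def gaugeF (σ : Site → ℝ) (s : Fn) : Fn := fun i => σ i.1 * s i
def IsSign (σ : Site → ℝ) : Prop := ∀ x, σ x = 1 ∨ σ x = -1

theorem IsSign.mul_self {σ : Site → ℝ} (hσ : IsSign σ) (x : Site) : σ x * σ x = 1 := by
  rcases hσ x with h | h <;> simp [h]

theorem opA_gauge {σ : Site → ℝ} (hσ : IsSign σ) (w : Edge → ℝ) (s : Fn) :
    opA (gaugeW σ w) (gaugeF σ s) = gaugeF σ (opA w s) := by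
  funext i
  induction i using b1_he <;>
    simp only [opA_0, opA_1, opA_2, opA_3, opp_0, opp_1, opp_2, opp_3, gaugeW, gaugeF, edgeOf_0,
      edgeOf_1, edgeOf_2, edgeOf_3, add_uv_0, add_uv_1, sub_add_cancel] <;> rename_i a b
  · linear_combination (σ (a, b) * w ((a, b), 0) * s ((a + 1, b), 2)) * hσ.mul_self (a + 1, b)
  · linear_combination (σ (a, b) * w ((a, b), 1) * s ((a, b + 1), 3)) * hσ.mul_self (a, b + 1)
  · linear_combination (-σ (a, b) * w ((a - 1, b), 0) * s ((a - 1, b), 0)) * hσ.mul_self (a - 1, b)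
  · linear_combination (-σ (a, b) * w ((a, b - 1), 1) * s ((a, b - 1), 1)) * hσ.mul_self (a, b - 1)

/-- sign of a proposition -/
def sg (p : Prop) : ℝ := if p then -1 else 1

theorem sg_mul_self (p : Prop) : sg p * sg p = 1 := by unfold sg; split_ifs <;> simp

theorem b1_sign_prod {ι : Type} (S : Finset ι) (p : ι → Prop) :
    ∏ v ∈ S, sg (p v) = 1 ∨ ∏ v ∈ S, sg (p v) = -1 :=
  mul_self_eq_one_iff.1 (by rw [← Finset.prod_mul_distrib]; simp [sg_mul_self])

theorem eray_0 (S : Finset Site) (x : Site) : eray S (x, 0) = 1 := by simp [eray]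

theorem eray_1 (S : Finset Site) (x : Site) :
    eray S (x, 1) = ∏ v ∈ S, sg (v.2 = x.2 + 1 ∧ v.1 ≤ x.1) := by
  simp only [eray, if_true]
  rw [← Finset.prod_const, Finset.prod_filter]
  exact Finset.prod_congr rfl fun v _ => by unfold sg; congr

theorem eray_sign (S : Finset Site) (e : Edge) : eray S e = 1 ∨ eray S e = -1 := by
  obtain ⟨x, j⟩ := e
  fin_cases j
  · exact Or.inl (eray_0 S x)
  · exact eray_1 S x ▸ b1_sign_prod S _

theorem eray_sq (S : Finset Site) (e : Edge) : eray S e ^ 2 = 1 := by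
  rcases eray_sign S e with h | h <;> simp [h]

/-- cuts of spins outside a box can be moved out of the box -/
theorem exists_gauge (S S' : Finset Site) (x : Site) (R : ℕ)
    (h : ∀ v ∈ box x (R + 1), v ∈ S ↔ v ∈ S') :
    ∃ σ, IsSign σ ∧ ∀ e : Edge, e.1 ∈ box x R → e.1 + uv e.2 ∈ box x R →
      σ e.1 * σ (e.1 + uv e.2) * eray S e = eray S' e := by
  let τ : Finset Site → ℤ → ℝ := fun T b => ∏ v ∈ T, sg (v.1 < x.1 - R ∧ v.2 ≤ b)
  have hτ : ∀ T b, τ T b * τ T b = 1 := fun T b => mul_self_eq_one_iff.2 (b1_sign_prod T _)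
  refine ⟨fun y => τ S y.2 * τ S' y.2, fun y => mul_self_eq_one_iff.1 ?_, fun ⟨⟨a, b⟩, j⟩ h1 h2 => ?_⟩
  · linear_combination (τ S' y.2 * τ S' y.2) * hτ S y.2 + hτ S' y.2
  fin_cases j
  · simp only [Fin.zero_eta, add_uv_0, eray_0]
    linear_combination (τ S' b * τ S' b) * hτ S b + hτ S' b
  · simp only [Fin.mk_one, add_uv_1, b1_mem_box] at h1 h2 ⊢
    have key : ∀ T, τ T b * τ T (b + 1) * eray T ((a, b), 1) =
        ∏ v ∈ T.filter (· ∈ box x (R + 1)), sg (v.2 = b + 1 ∧ x.1 - R ≤ v.1 ∧ v.1 ≤ a) := fun T => by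
      rw [eray_1, ← Finset.prod_mul_distrib, ← Finset.prod_mul_distrib, Finset.prod_filter]
      refine Finset.prod_congr rfl fun v _ => ?_
      simp only [sg, b1_mem_box]
      push_cast
      split_ifs <;> first | omega | norm_num
    have e : S.filter (· ∈ box x (R + 1)) = S'.filter (· ∈ box x (R + 1)) := by
      ext v
      simp only [Finset.mem_filter]
      exact ⟨fun hv => ⟨(h v hv.2).1 hv.1, hv.2⟩, fun hv => ⟨(h v hv.2).2 hv.1, hv.2⟩⟩
    have k := key S
    rw [e, ← key S'] at k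
    linear_combination (τ S' b * τ S' (b + 1)) * k +
      (eray S' ((a, b), 1) * τ S' (b + 1) * τ S' (b + 1)) * hτ S' b +
      eray S' ((a, b), 1) * hτ S' (b + 1)

theorem eray_symmDiff (S T : Finset Site) (e : Edge) : eray (symmDiff S T) e = eray S e * eray T e := by
  obtain ⟨x, j⟩ := e
  fin_cases j
  · simp [eray_0]
  · simp only [Fin.mk_one, eray_1]
    rw [← Finset.prod_inter_mul_prod_sdiff S T, ← Finset.prod_inter_mul_prod_sdiff T S,
      Finset.inter_comm T S, symmDiff_def, Finset.sup_eq_union,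
      Finset.prod_union disjoint_sdiff_sdiff]
    linear_combination (-((∏ v ∈ S \ T, sg (v.2 = x.2 + 1 ∧ v.1 ≤ x.1)) *
      ∏ v ∈ T \ S, sg (v.2 = x.2 + 1 ∧ v.1 ≤ x.1))) *
      mul_self_eq_one_iff.2 (b1_sign_prod (S ∩ T) fun v => v.2 = x.2 + 1 ∧ v.1 ≤ x.1)

/-- moving one spin across the bond crossed by `e` = flipping `e`, up to a finitely supported or half-line gauge -/
theorem eray_move (S : Finset Site) (e : Edge) :
    ∃ σ, IsSign σ ∧ ∀ e' : Edge, σ e'.1 * σ (e'.1 + uv e'.2) * eray (symmDiff S {edgeB0 e, edgeB1 e}) e' =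
      (if e' = e then -1 else 1) * eray S e' := by
  obtain ⟨⟨a, b⟩, j⟩ := e
  have hs : ∀ p : Site → Prop, IsSign fun y => sg (p y) := fun p y =>
    mul_self_eq_one_iff.1 (sg_mul_self _)
  simp only [eray_symmDiff, mul_comm (eray S _), ← mul_assoc]
  fin_cases j
  · refine ⟨_, hs fun y => y.2 = b ∧ a + 1 ≤ y.1, fun ⟨⟨c, d⟩, k⟩ => ?_⟩
    congr 1
    fin_cases k
    · simp only [Fin.zero_eta, add_uv_0, eray_0, sg, Prod.mk.injEq, and_true]
      split_ifs <;> first | omega | norm_num
    · simp only [Fin.zero_eta, Fin.mk_one, add_uv_1, eray_1]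
      rw [Finset.prod_pair (by simp [edgeB0, edgeB1])]
      simp only [sg, edgeB0, edgeB1, Prod.mk.injEq, Matrix.cons_val_zero, Prod.mk_add_mk, one_ne_zero,
        and_false, if_false]
      split_ifs <;> first | omega | norm_num
  · refine ⟨_, hs fun _ => False, fun ⟨⟨c, d⟩, k⟩ => ?_⟩
    congr 1
    fin_cases k
    · simp [eray_0, sg]
    · simp only [Fin.mk_one, eray_1]
      rw [Finset.prod_pair (by simp [edgeB0, edgeB1])]
      simp only [sg, edgeB0, edgeB1, Prod.mk.injEq, Matrix.cons_val_one, Matrix.cons_val_zero,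
        Prod.mk_add_mk, and_true, if_false]
      split_ifs <;> first | omega | norm_num

end Crest.Agent.R165
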