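import Crest.Agent.R165.B1.C

/-! # R165 block B1/D: the function `H` -/

set_option autoImplicit false
noncomputable section
open Classical

namespace Crest.Agent.R165

theorem b1_prim (f : ℤ → ℝ) : ∃ F : ℤ → ℝ, ∀ n, F (n + 1) - F n = f n := by
  refine ⟨fun n => ∑ k ∈ Finset.range n.toNat, f k - ∑ k ∈ Finset.range (-n).toNat, f (-1 - k),
    fun n => ?_⟩
  rcases le_or_gt 0 n with h | h
  · obtain ⟨m, rfl⟩ := Int.eq_ofNat_of_zero_le h
    have h1 : ((m : ℤ) + 1).toNat = m + 1 := by omega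
    have h2 : (-((m : ℤ) + 1)).toNat = 0 := by omega
    simp only [h1, h2]
    simp [Finset.sum_range_succ]
  · obtain ⟨m, rfl⟩ : ∃ m : ℕ, n = -1 - m := ⟨(-1 - n).toNat, by omega⟩
    have h1 : (-1 - (m : ℤ) + 1).toNat = 0 := by omega
    have h2 : (-(-1 - (m : ℤ) + 1)).toNat = m := by omega
    have h3 : (-1 - (m : ℤ)).toNat = 0 := by omega
    have h4 : (-(-1 - (m : ℤ))).toNat = m + 1 := by omega
    simp only [h1, h2, h3, h4, Finset.sum_range_succ]
    ring

theorem b1_const {J : Set ℤ} (hJ : J.OrdConnected) {G : ℤ → ℝ}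
    (h : ∀ n, n ∈ J → n + 1 ∈ J → G (n + 1) = G n) {b b' : ℤ} (hb : b ∈ J) (hb' : b' ∈ J) :
    G b = G b' := by
  wlog hle : b ≤ b' generalizing b b'
  · exact (this hb' hb (le_of_not_ge hle)).symm
  induction b', hle using Int.leInduction with
  | base => rfl
  | succ n hn ih =>
    have : n ∈ J := hJ.out hb hb' ⟨hn, by omega⟩
    rw [h n this hb', ih this]

/-- discrete Poincaré lemma on the corner graph of a rectangle -/
theorem b1_poincare {I J : Set ℤ} (hJ : J.OrdConnected) {b₀ : ℤ} (hb₀ : b₀ ∈ J) (q : Site → Fin 4 → ℝ)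
    (hh : ∀ a b, a ∈ I → a + 1 ∈ I → b ∈ J → q (a, b) 0 - q (a, b) 3 = q (a + 1, b) 1 - q (a + 1, b) 2)
    (hv : ∀ a b, a ∈ I → b ∈ J → b + 1 ∈ J → q (a, b) 1 - q (a, b) 0 = q (a, b + 1) 2 - q (a, b + 1) 3) :
    ∃ Hw Hb : Site → ℝ, ∀ x : Site, x.1 ∈ I → x.2 ∈ J → ∀ α, Hw x - Hb (cB x α) = q x α := by
  obtain ⟨F, hF⟩ := b1_prim fun a => q (a + 1, b₀) 2 - q (a, b₀) 3
  choose G hG using fun a => b1_prim fun b => q (a, b + 1) 2 - q (a, b) 1
  let Hw : Site → ℝ := fun x => F x.1 + G x.1 x.2 - G x.1 b₀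
  have v : ∀ a b, Hw (a, b + 1) = Hw (a, b) + q (a, b + 1) 2 - q (a, b) 1 := fun a b => by
    simp only [Hw]; linarith [hG a b]
  have u : ∀ a b, a ∈ I → a + 1 ∈ I → b ∈ J →
      Hw (a + 1, b) = Hw (a, b) + q (a + 1, b) 2 - q (a, b) 3 := fun a b h1 h2 h3 => by
    have := b1_const hJ (G := fun b => Hw (a + 1, b) - Hw (a, b) - q (a + 1, b) 2 + q (a, b) 3)
      (fun n h4 h5 => by simp only [v]; linarith [hh a n h1 h2 h4, hv a n h1 h4 h5]) h3 hb₀
    simp only [Hw] at this ⊢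
    linarith [hF a]
  clear_value Hw
  refine ⟨Hw, fun z => if z.1 ∈ I then
      if z.2 ∈ J then Hw z - q z 2 else Hw (z.1, z.2 - 1) - q (z.1, z.2 - 1) 1
    else if z.2 ∈ J then Hw (z.1 - 1, z.2) - q (z.1 - 1, z.2) 3
      else Hw (z.1 - 1, z.2 - 1) - q (z.1 - 1, z.2 - 1) 0, fun ⟨a, b⟩ ha hb α => ?_⟩
  dsimp only at ha hb
  induction α using b1_fin4 <;>
    simp only [cB_0, cB_1, cB_2, cB_3, add_sub_cancel_right, ha, hb, if_true]
  · split_ifs with h1 h2 h2
    · linarith [v (a + 1) b, u a b ha h1 hb, hh a b ha h1 hb]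
    · linarith [u a b ha h1 hb, hh a b ha h1 hb]
    · linarith [v a b, hv a b ha hb h2]
    · ring
  · split_ifs with h1
    · linarith [v a b]
    · ring
  · ring
  · split_ifs with h1
    · linarith [u a b ha h1 hb]
    · ring

/-- the two values at the corner `(x, α)` agree up to sign -/
def CornerOK (w : Edge → ℝ) (s : Fn) (x : Site) : Prop :=
  ∀ α, cP w s x α ^ 2 = (cP w s x (α + 1) - 2 * s (x, α + 1)) ^ 2

theorem cornerOK_of_sol {w : Edge → ℝ} {s : Fn} {x : Site} (h : ∀ α, opA w s (x, α) = 0) :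
    CornerOK w s x := fun α => by
  have := corner_defect w s x α
  rw [h, h, mul_zero, sub_zero, sub_eq_zero] at this
  rw [this]
  split_ifs <;> ring

theorem exists_H_rect {w : Edge → ℝ} {s : Fn} {I J : Set ℤ} (hJ : J.OrdConnected) {b₀ : ℤ}
    (hb₀ : b₀ ∈ J) (h : ∀ a b, a ∈ I → b ∈ J → CornerOK w s (a, b)) :
    ∃ Hw Hb : Site → ℝ, ∀ x : Site, x.1 ∈ I → x.2 ∈ J → ∀ α, Hw x - Hb (cB x α) = cP w s x α ^ 2 := by
  refine b1_poincare hJ hb₀ (fun x α => cP w s x α ^ 2) (fun a b h1 h2 h3 => ?_) fun a b h1 h2 h3 => ?_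
  · rw [h a b h1 h3 3, h (a + 1) b h2 h3 1]
    show _ - (cP w s _ 0 - 2 * s (_, 0)) ^ 2 = (cP w s _ 2 - 2 * s (_, 2)) ^ 2 - _
    simp only [cP, opp_0, opp_2, edgeOf_0, edgeOf_2, add_sub_cancel_right]
    ring
  · rw [h a b h1 h2 0, h a (b + 1) h1 h3 2]
    show _ - (cP w s _ 1 - 2 * s (_, 1)) ^ 2 = (cP w s _ 3 - 2 * s (_, 3)) ^ 2 - _
    simp only [cP, opp_1, opp_3, edgeOf_1, edgeOf_3, add_sub_cancel_right]
    ring

/-- existence of `H` on a box (any weights) -/
theorem exists_H_box (w : Edge → ℝ) (s : Fn) (x : Site) (R : ℕ) (h : SolOn w (box x R) s) :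
    ∃ Hw Hb, IsH w s (box x R) Hw Hb := by
  obtain ⟨Hw, Hb, hH⟩ := exists_H_rect (w := w) (s := s) (I := Set.Icc (x.1 - R) (x.1 + R))
    (J := Set.Icc (x.2 - R) (x.2 + R)) Set.ordConnected_Icc (b₀ := x.2) ⟨by omega, by omega⟩
    fun a b ha hb => cornerOK_of_sol (h _ (Finset.mem_coe.2 (b1_mem_box.2 ⟨ha, hb⟩)))
  exact ⟨Hw, Hb, fun y hy => hH y (b1_mem_box.1 hy).1 (b1_mem_box.1 hy).2⟩

theorem opA_sum {ι : Type} (w : Edge → ℝ) (t : Finset ι) (c : ι → ℝ) (f : ι → Fn) (i : HE) :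
    opA w (fun j => ∑ k ∈ t, c k * f k j) i = ∑ k ∈ t, c k * opA w (f k) i := by
  induction i using b1_he <;>
    simp only [opA_0, opA_1, opA_2, opA_3, opp_0, opp_1, opp_2, opp_3, mul_add, mul_sub, mul_neg,
      Finset.sum_add_distrib, Finset.sum_sub_distrib, Finset.sum_neg_distrib, Finset.mul_sum,
      mul_left_comm (w _)]

theorem opA_kC {w : Edge → ℝ} {g : HE → HE → ℝ} (hg : IsKer w g) (x : Site) (α : Fin 4) (y : Site)
    (β : Fin 4) : opA w (kC g x α) (y, β) = if y = x then vC α β else 0 := by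
  refine (opA_sum w _ _ _ _).trans ?_
  simp only [hg.2, Prod.mk.injEq]
  split_ifs with h <;> simp [h]

/-- existence of `H` in the whole plane for a corner-source solution: the two values at the source corner are
`± 1/2`, because the kernel is antisymmetric -/
theorem exists_H_kC {w : Edge → ℝ} {g : HE → HE → ℝ} (hg : IsKer w g) (x : Site) (α : Fin 4) :
    cP w (kC g x α) x α = 1 / 2 ∧ ∃ Hw Hb, IsH w (kC g x α) Set.univ Hw Hb := by
  have h1 : cP w (kC g x α) x α = 1 / 2 := by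
    have h := opA_kC hg x α x α
    have a := fun β γ => hg.1 (x, β) (x, γ)
    have := a 0 0; have := a 1 1; have := a 2 2; have := a 3 3; have := a 0 1; have := a 0 2
    have := a 0 3; have := a 1 2; have := a 1 3; have := a 2 3
    rw [cP]
    induction α using b1_fin4 <;> simp only [opA_0, opA_1, opA_2, opA_3] at h <;>
      generalize w _ * opp _ _ _ = o at h ⊢ <;> simp [kC, vC, Fin.sum_univ_four] at h ⊢ <;> linarith
  refine ⟨h1, ?_⟩
  obtain ⟨Hw, Hb, hH⟩ := exists_H_rect (w := w) (s := kC g x α) (I := Set.univ) (J := Set.univ)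
    Set.ordConnected_univ (b₀ := 0) trivial fun a b _ _ β => by
      by_cases h : (a, b) = x
      · have := corner_defect w (kC g x α) x β
        rw [h]
        simp only [opA_kC hg, if_true] at this
        generalize cP w (kC g x α) x (β + 1) - 2 * kC g x α (x, β + 1) = m at this ⊢
        by_cases hβ : β = α
        · subst hβ
          rw [h1] at this ⊢
          refine sq_eq_sq_iff_eq_or_eq_neg.2 ?_
          induction β using b1_fin4 <;> simp [vC] at this
          · right; linarith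
          · right; linarith
          · right; linarith
          · left; linarith
        · refine sq_eq_sq_iff_eq_or_eq_neg.2 ?_
          induction β using b1_fin4 <;> induction α using b1_fin4 <;> simp [vC] at this hβ <;>
            first | (left; linarith) | (right; linarith)
      · exact cornerOK_of_sol (fun γ => by rw [opA_kC hg, if_neg h]) β
  exact ⟨Hw, Hb, fun y _ => hH y trivial trivial⟩

/-- increments of `H` along a white edge and along a black edge -/
theorem IsH.white {w : Edge → ℝ} {s : Fn} {W : Set Site} {Hw Hb : Site → ℝ} (hH : IsH w s W Hw Hb)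
    (hs : SolOn w W s) {x : Site} {α : Fin 4} (hx : x ∈ W) (hx' : x + dv α ∈ W) :
    Hw (x + dv α) - Hw x = (1 - w (edgeOf x α) ^ 2) * (opp s x α ^ 2 - s (x, α) ^ 2) := by
  have h1 := hH x hx α
  have h2 := hH _ hx' (α + 1)
  rw [cornerOK_of_sol (hs _ hx')] at h2
  obtain ⟨a, b⟩ := x
  induction α using b1_fin4 <;>
    simp [cP, cB, opp, sv, dv, edgeOf, ← sub_eq_add_neg] at h1 h2 ⊢ <;> linarith

theorem IsH.black_eq {w : Edge → ℝ} {s : Fn} {W : Set Site} {Hw Hb : Site → ℝ} (hH : IsH w s W Hw Hb)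
    (hs : SolOn w W s) {x : Site} (hx : x ∈ W) (α : Fin 4) :
    Hb (cB x α) - Hb (cB x (α + 1)) = 4 * (w (edgeOf x (α + 1)) * s (x, α + 1) * opp s x (α + 1)) := by
  have h1 := hH x hx α
  have h2 := hH x hx (α + 1)
  rw [cornerOK_of_sol (hs _ hx)] at h1
  rw [cP] at h1 h2
  linear_combination h2 - h1

theorem IsH.black {w : Edge → ℝ} {s : Fn} {W : Set Site} {Hw Hb : Site → ℝ} (hH : IsH w s W Hw Hb)
    (hs : SolOn w W s) {e : Edge} (hx : e.1 ∈ W) :
    |Hb (edgeB1 e) - Hb (edgeB0 e)| = 4 * |w e * s (he0 e) * s (he1 e)| := by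
  obtain ⟨⟨a, b⟩, j⟩ := e
  fin_cases j
  · have := hH.black_eq hs hx 3
    rw [abs_sub_comm]
    simp [cB, edgeOf, opp, sv, dv] at this
    simp [edgeB0, edgeB1, he0, he1, uv, this, abs_mul]
  · have := hH.black_eq hs hx 0
    simp [cB, edgeOf, opp, sv, dv] at this
    simp [edgeB0, edgeB1, he0, he1, uv, this, abs_mul]

end Crest.Agent.R165
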