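import Crest.Agent.R165.B1.D

/-! # R165 block B1/E: sub- and superharmonicity of `H` -/

set_option autoImplicit false
noncomputable section
open Classical

namespace Crest.Agent.R165

/-- Neumann Laplacian along the critical edges -/
def lapN (E : Set Edge) (H : Site → ℝ) (x : Site) : ℝ :=
  ∑ α : Fin 4, if edgeOf x α ∈ E then H (x + dv α) - H x else 0

/-- the on-site part of `opA` -/
def opA0 (s : Fn) (x : Site) (α : Fin 4) : ℝ := sv s x (α + 1) + sv s x (α + 2) + sv s x (α + 3)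

theorem b1_A0_sq (s : Fn) (x : Site) : ∑ α, opA0 s x α ^ 2 =
    tc ^ 2 * ∑ α, s (x, α) ^ 2 + 4 * Real.sqrt 2 * ∑ α, mas s (x, α) ^ 2 := by
  simp [Fin.sum_univ_four, opA0, sv, mas_0, mas_1, mas_2, mas_3, tc]
  linear_combination (-(s (x, 0) ^ 2 + s (x, 1) ^ 2 + s (x, 2) ^ 2 + s (x, 3) ^ 2) * (1 + Real.sqrt 2 / 2) -
    2 * (s (x, 0) * s (x, 1) + s (x, 1) * s (x, 2) + s (x, 2) * s (x, 3) - s (x, 3) * s (x, 0))) * b1_r

theorem wOf_sq {E : Set Edge} (S : Finset Site) {e : Edge} (h : e ∈ E) : wOf E S e ^ 2 = tc ^ 2 := by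
  rw [wOf, if_pos h, mul_pow, eray_sq, mul_one]

theorem b1_self_mem_box (x : Site) (R : ℕ) : x ∈ box x R := by rw [b1_mem_box]; omega

theorem b1_add_dv_mem_box (x : Site) (α : Fin 4) : x + dv α ∈ box x 1 := by
  rw [b1_mem_box]
  induction α using b1_fin4 <;> simp [dv] <;> omega

theorem b1_white {E : Set Edge} {S : Finset Site} {s : Fn} {Hw Hb : Site → ℝ} {x : Site}
    (hH : IsH (wOf E S) s (box x 1) Hw Hb) (hs : SolOn (wOf E S) (box x 1) s) (α : Fin 4) :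
    tc ^ 2 * (if edgeOf x α ∈ E then Hw (x + dv α) - Hw x else 0) = (1 - tc ^ 2) * (opA0 s x α ^ 2 -
      tc ^ 2 * s (x, α) ^ 2 + tc ^ 2 * if edgeOf x α ∈ E then 0 else s (x, α) ^ 2) := by
  have h1 : opA0 s x α + wOf E S (edgeOf x α) * opp s x α = 0 := hs x (b1_self_mem_box x 1) α
  split_ifs with h
  · rw [hH.white hs (b1_self_mem_box x 1) (b1_add_dv_mem_box x α), eq_neg_of_add_eq_zero_left h1, neg_sq,
      mul_pow, wOf_sq S h]
    ring
  · rw [wOf, if_neg h, zero_mul, add_zero] at h1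
    rw [h1]; ring

/-- **white subharmonicity with killing** (holds next to branch points too) -/
theorem lapN_ge {E : Set Edge} {S : Finset Site} {s : Fn} {Hw Hb : Site → ℝ} {x : Site}
    (hH : IsH (wOf E S) s (box x 1) Hw Hb) (hs : SolOn (wOf E S) (box x 1) s) :
    (1 - tc ^ 2) * (∑ α : Fin 4, if edgeOf x α ∈ E then 0 else s (x, α) ^ 2) ≤ lapN E Hw x ∧
    ∀ α, edgeOf x α ∉ E → Hw x - Hb (cB x α) = s (x, α) ^ 2 := by
  refine ⟨?_, fun α h => by rw [hH x (b1_self_mem_box x 1) α, cP, wOf, if_neg h, zero_mul, add_zero]⟩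
  have ht := tc_pos
  refine le_of_mul_le_mul_left ?_ (pow_pos ht.1 2)
  rw [lapN, Finset.mul_sum _ _ (tc ^ 2)]
  simp only [b1_white hH hs]
  rw [← Finset.mul_sum, Finset.sum_add_distrib, Finset.sum_sub_distrib, ← Finset.mul_sum,
    ← Finset.mul_sum, b1_A0_sq]
  have h1 : 0 ≤ 4 * Real.sqrt 2 * ∑ α, mas s (x, α) ^ 2 := by positivity
  have h2 : 0 ≤ 1 - tc ^ 2 := by nlinarith
  nlinarith [mul_nonneg h1 h2]

theorem b1_edge {w s o : ℝ} (hw : w ^ 2 = tc ^ 2) :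
    tc ^ 2 * (w * s * o) * 4 = (1 - tc) * w * ((s + w * o) * (o + w * s)) * 2 -
      tc ^ 2 * ((s + w * o) ^ 2 + (o + w * s) ^ 2) := by
  have h := tc_sq
  have h1 : w ^ 2 = 1 - 2 * tc := by linarith
  have h2 : tc ^ 2 = 1 - 2 * tc := by linarith
  have e1 : (s + w * o) * (o + w * s) * w = s * o * w * (2 - 2 * tc) + (1 - 2 * tc) * (s ^ 2 + o ^ 2) := by
    linear_combination (s ^ 2 + o ^ 2 + s * o * w) * h1
  have e2 : (s + w * o) ^ 2 + (o + w * s) ^ 2 = (2 - 2 * tc) * (s ^ 2 + o ^ 2) + 4 * (w * s * o) := by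
    linear_combination (s ^ 2 + o ^ 2) * h1
  rw [e2]
  linear_combination (-(1 - tc) * 2) * e1 + (4 * (w * s * o) + 2 * (1 - tc) * (s ^ 2 + o ^ 2)) * h2

theorem b1_cyc {c₁ c₂ c₃ c₄ w₁ w₂ w₃ w₄ : ℝ} (h1 : w₁ ^ 2 = tc ^ 2) (h2 : w₂ ^ 2 = tc ^ 2)
    (h3 : w₃ ^ 2 = tc ^ 2) (h4 : w₄ ^ 2 = tc ^ 2) (h : w₁ * w₄ + w₂ * w₃ = 0) :
    (1 - tc) * (w₁ * (c₁ * c₂) + w₂ * (c₂ * c₃) + w₃ * (c₃ * c₄) + w₄ * (c₄ * c₁)) ≤
      tc ^ 2 * (c₁ ^ 2 + c₂ ^ 2 + c₃ ^ 2 + c₄ ^ 2) := by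
  have ht := tc_sq
  have e : (w₁ * c₂ + w₄ * c₄) ^ 2 + (w₂ * c₂ + w₃ * c₄) ^ 2 = 2 * tc ^ 2 * (c₂ ^ 2 + c₄ ^ 2) := by
    linear_combination c₂ ^ 2 * (h1 + h2) + c₄ ^ 2 * (h3 + h4) + 2 * c₂ * c₄ * h
  have e2 : (1 - tc) ^ 2 = 2 * tc ^ 2 := by linear_combination -ht
  refine le_of_mul_le_mul_left ?_ (pow_pos tc_pos.1 2)
  have a := sq_nonneg (2 * tc ^ 2 * c₁ - (1 - tc) * (w₁ * c₂ + w₄ * c₄))
  have b := sq_nonneg (2 * tc ^ 2 * c₃ - (1 - tc) * (w₂ * c₂ + w₃ * c₄))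
  have e3 : (1 - tc) ^ 2 * ((w₁ * c₂ + w₄ * c₄) ^ 2 + (w₂ * c₂ + w₃ * c₄) ^ 2) =
      4 * tc ^ 4 * (c₂ ^ 2 + c₄ ^ 2) := by rw [e, e2]; ring
  nlinarith

/-- black superharmonicity away from branch points and frozen sites -/
theorem lapB_le {E : Set Edge} {S : Finset Site} {s : Fn} {Hw Hb : Site → ℝ} {b : Site}
    (hH : IsH (wOf E S) s (box b 1) Hw Hb) (hs : SolOn (wOf E S) (box b 1) s)
    (hb : ¬ FrozenB E b) (hS : b ∉ S) : ∑ α : Fin 4, (Hb (b + dv α) - Hb b) ≤ 0 := by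
  obtain ⟨c, d⟩ := b
  have hE : ∀ e, (edgeB0 e = (c, d) ∨ edgeB1 e = (c, d)) → e ∈ E := fun e h => by
    by_contra h'
    exact hb ⟨e, h', h⟩
  have E1 := hE ((c, d - 1), 1) (by simp [edgeB0])
  have E2 := hE ((c - 1, d), 0) (by simp [edgeB0])
  have E3 := hE ((c - 1, d - 1), 1) (by simp [edgeB1])
  have E4 := hE ((c - 1, d - 1), 0) (by simp [edgeB1])
  have hw : wOf E S ((c - 1, d), 0) * wOf E S ((c, d - 1), 1) =
      wOf E S ((c - 1, d - 1), 1) * wOf E S ((c - 1, d - 1), 0) := by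
    have : eray S ((c, d - 1), 1) = eray S ((c - 1, d - 1), 1) := by
      rw [eray_1, eray_1]
      refine Finset.prod_congr rfl fun v hv => ?_
      have : ¬ (v.1 = c ∧ v.2 = d) := fun h => hS (by rw [← h.1, ← h.2]; exact hv)
      simp only [sg]
      split_ifs <;> first | rfl | omega
    simp only [wOf, E1, E2, E3, E4, if_true, eray_0, this]
    ring
  have m : ∀ p q, c - 1 ≤ p → p ≤ c → d - 1 ≤ q → q ≤ d → (p, q) ∈ (box (c, d) 1 : Set Site) :=
    fun p q _ _ _ _ => Finset.mem_coe.2 (b1_mem_box.2 (by simp only []; omega))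
  have m1 := m c d (by omega) (by omega) (by omega) (by omega)
  have m2 := m (c - 1) d (by omega) (by omega) (by omega) (by omega)
  have m3 := m (c - 1) (d - 1) (by omega) (by omega) (by omega) (by omega)
  have m4 := m c (d - 1) (by omega) (by omega) (by omega) (by omega)
  have b1 := hH.black_eq hs m1 2
  have b2 := hH.black_eq hs m2 3
  have b3 := hH.black_eq hs m3 0
  have b4 := hH.black_eq hs m4 1
  have d1 := corner_defect (wOf E S) s (c, d) 2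
  have d2 := corner_defect (wOf E S) s (c - 1, d) 3
  have d3 := corner_defect (wOf E S) s (c - 1, d - 1) 0
  have d4 := corner_defect (wOf E S) s (c, d - 1) 1
  rw [hs _ m1, hs _ m1] at d1
  rw [hs _ m2, hs _ m2] at d2
  rw [hs _ m3, hs _ m3] at d3
  rw [hs _ m4, hs _ m4] at d4
  have w1 := wOf_sq S E1
  have w2 := wOf_sq S E2
  have w3 := wOf_sq S E3
  have w4 := wOf_sq S E4
  simp [cP, cB_0, cB_1, cB_2, cB_3, opp_0, opp_1, opp_2, opp_3, edgeOf_0, edgeOf_1, edgeOf_2,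
    edgeOf_3] at b1 b2 b3 b4 d1 d2 d3 d4
  simp only [Fin.sum_univ_four, add_dv_0, add_dv_1, add_dv_2, add_dv_3]
  generalize wOf E S ((c, d - 1), 1) = W1 at *
  generalize wOf E S ((c - 1, d), 0) = W2 at *
  generalize wOf E S ((c - 1, d - 1), 1) = W3 at *
  generalize wOf E S ((c - 1, d - 1), 0) = W4 at *
  have e1 := b1_edge (s := s ((c, d), 3)) (o := s ((c, d - 1), 1)) w1
  have e2 := b1_edge (s := s ((c - 1, d), 0)) (o := s ((c, d), 2)) ((neg_sq W2).trans w2)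
  have e3 := b1_edge (s := s ((c - 1, d - 1), 1)) (o := s ((c - 1, d), 3)) ((neg_sq W3).trans w3)
  have e4 := b1_edge (s := s ((c, d - 1), 2)) (o := s ((c - 1, d - 1), 0)) w4
  have k := b1_cyc (c₁ := s ((c, d), 3) + W1 * s ((c, d - 1), 1))
    (c₂ := s ((c - 1, d), 0) + -W2 * s ((c, d), 2)) (c₃ := s ((c - 1, d - 1), 1) + -W3 * s ((c - 1, d), 3))
    (c₄ := s ((c, d - 1), 2) + W4 * s ((c - 1, d - 1), 0)) w2 ((neg_sq W3).trans w3)
    ((neg_sq W4).trans w4) ((neg_sq W1).trans w1) (by linarith)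
  rw [show s ((c, d - 1), 1) + W1 * s ((c, d), 3) = -(s ((c, d - 1), 2) + W4 * s ((c - 1, d - 1), 0)) by
    linarith] at e1
  rw [show s ((c, d), 2) + -W2 * s ((c - 1, d), 0) = -(s ((c, d), 3) + W1 * s ((c, d - 1), 1)) by
    linarith] at e2
  rw [show s ((c - 1, d), 3) + -W3 * s ((c - 1, d - 1), 1) = s ((c - 1, d), 0) + -W2 * s ((c, d), 2) by
    linarith] at e3
  rw [show s ((c - 1, d - 1), 0) + W4 * s ((c, d - 1), 2) =
    -(s ((c - 1, d - 1), 1) + -W3 * s ((c - 1, d), 3)) by linarith] at e4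
  refine le_of_mul_le_mul_left ?_ (pow_pos tc_pos.1 2)
  rw [← neg_sub (Hb (c, d)), ← neg_sub (Hb (c, d)), ← neg_sub (Hb (c, d)), ← neg_sub (Hb (c, d)),
    b1, b2, b3, b4]
  linarith

theorem b1_homog {Φ : (Fin 4 → ℝ) → ℝ} (hc : Continuous Φ) (h2 : ∀ (r : ℝ) v, Φ (r • v) = r ^ 2 * Φ v)
    (h0 : ∀ v, v ≠ 0 → 0 < Φ v) : ∃ C : ℝ, 0 < C ∧ ∀ v, ‖v‖ ^ 2 ≤ C * Φ v := by
  obtain ⟨u, hu, hm⟩ := (isCompact_sphere (0 : Fin 4 → ℝ) 1).exists_isMinOn
    (NormedSpace.sphere_nonempty.2 zero_le_one) hc.continuousOn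
  have hp := h0 u (ne_zero_of_mem_unit_sphere ⟨u, hu⟩)
  refine ⟨(Φ u)⁻¹, inv_pos.2 hp, fun v => ?_⟩
  rcases eq_or_ne v 0 with rfl | hv
  · have := h2 0 0
    rw [zero_smul, sq, zero_mul, zero_mul] at this
    simp [this]
  have hn := norm_pos_iff.2 hv
  have h1 : Φ u ≤ Φ (‖v‖⁻¹ • v) := hm (by simp [norm_smul, hn.ne'])
  rw [h2] at h1
  rw [← div_eq_inv_mul, le_div_iff₀ hp]
  calc _ ≤ ‖v‖ ^ 2 * (‖v‖⁻¹ ^ 2 * Φ v) := by gcongr
    _ = _ := by field_simp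

/-- the square of a solution is controlled by the white gradient of `H` at an all-critical site -/
theorem sq_le_grad : ∃ C : ℝ, ∀ (E : Set Edge) (S : Finset Site) (s : Fn) (Hw Hb : Site → ℝ) (x : Site),
    IsH (wOf E S) s (box x 1) Hw Hb → SolOn (wOf E S) (box x 1) s → Crit E {x} →
    ∀ α, s (x, α) ^ 2 ≤ C * ∑ β : Fin 4, |Hw (x + dv β) - Hw x| := by
  have ht := tc_pos
  obtain ⟨C, hC, h⟩ := b1_homog
    (Φ := fun v => ∑ β, |opA0 (fun i => v i.2) 0 β ^ 2 - tc ^ 2 * v β ^ 2|)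
    (by simp [Fin.sum_univ_four, opA0, sv]; fun_prop)
    (fun r v => by
      rw [Finset.mul_sum]
      refine Finset.sum_congr rfl fun β _ => ?_
      rw [← abs_of_nonneg (sq_nonneg r), ← abs_mul]
      congr 1
      induction β using b1_fin4 <;> simp [opA0, sv] <;> ring)
    (fun v hv => by
      refine (Finset.sum_nonneg fun β _ => abs_nonneg _).lt_of_ne' fun h => hv ?_
      rw [Finset.sum_eq_zero_iff_of_nonneg fun β _ => abs_nonneg _] at h
      simp only [Finset.mem_univ, true_imp_iff, abs_eq_zero, sub_eq_zero] at h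
      have h1 := b1_A0_sq (fun i => v i.2) 0
      simp only [h, ← Finset.mul_sum, left_eq_add] at h1
      have h2 := (Finset.sum_eq_zero_iff_of_nonneg fun β _ => sq_nonneg _).1
        ((mul_eq_zero.1 h1).resolve_left (by positivity))
      have m0 := pow_eq_zero_iff two_ne_zero |>.1 (h2 0 (Finset.mem_univ _))
      have m2 := pow_eq_zero_iff two_ne_zero |>.1 (h2 2 (Finset.mem_univ _))
      have m3 := pow_eq_zero_iff two_ne_zero |>.1 (h2 3 (Finset.mem_univ _))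
      have a0 := h 0
      have a1 := h 1
      simp only [mas_0, mas_2, mas_3] at m0 m2 m3
      simp [opA0, sv] at a0 a1
      have r := b1_r
      have e0 : v 1 + v 2 + v 3 = -(tc * v 2) := by
        unfold tc; linear_combination (2 * Real.sqrt 2) * m2 - (v 1 + v 3) / 2 * r
      have e1 : v 2 + v 3 + -v 0 = -(tc * v 3) := by
        unfold tc; linear_combination (2 * Real.sqrt 2) * m3 - (v 2 - v 0) / 2 * r
      rw [e0, neg_sq, mul_pow, mul_right_inj' (pow_pos ht.1 2).ne'] at a0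
      rw [e1, neg_sq, mul_pow, mul_right_inj' (pow_pos ht.1 2).ne'] at a1
      have f0 : v 0 = -(Real.sqrt 2 / 2 * (v 1 - v 3)) := by linarith
      have f2 : v 2 = -(Real.sqrt 2 / 2 * (v 3 + v 1)) := by linarith
      have f3 : v 1 * v 3 = 0 := by
        rw [f0, f2] at a0
        linear_combination a0 / 2 - v 1 * v 3 / 2 * r
      have f4 : v 1 = 0 := by
        refine pow_eq_zero_iff (n := 4) (by norm_num) |>.1 ?_
        linear_combination (v 1 * v 3) * f3 - v 1 ^ 2 * a1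
      have f5 : v 3 = 0 := by
        refine pow_eq_zero_iff two_ne_zero |>.1 ?_
        rw [a1, f4]; ring
      funext β
      induction β using b1_fin4 <;> simp [f0, f2, f4, f5])
  have h1 : 0 < 1 - tc ^ 2 := by nlinarith
  refine ⟨C * (tc ^ 2 / (1 - tc ^ 2)), fun E S s Hw Hb x hH hs hc α => ?_⟩
  have h2 := h fun β => s (x, β)
  have h3 : ∀ β, |opA0 s x β ^ 2 - tc ^ 2 * s (x, β) ^ 2| =
      tc ^ 2 / (1 - tc ^ 2) * |Hw (x + dv β) - Hw x| := fun β => by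
    have := b1_white hH hs β
    rw [if_pos (hc x rfl β), if_pos (hc x rfl β), mul_zero, add_zero] at this
    rw [← abs_of_nonneg (a := tc ^ 2 / _) (by positivity), ← abs_mul, div_mul_eq_mul_div, this]
    congr 1
    field_simp
  rw [mul_assoc, Finset.mul_sum]
  simp only [← h3]
  refine le_trans ?_ h2
  rw [← sq_abs]
  exact pow_le_pow_left₀ (abs_nonneg _) (norm_le_pi_norm (fun β => s (x, β)) α) 2

end Crest.Agent.R165
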